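import Vale.Agent.P254.DD.Iface
import Vale.Agent.P254.H876.Facts

/-!
P254, the (DD) chain, block G2 (helper674): profile instances.

For a clock function `r` (given as a `Profile`, `r x = x om(x)`):
* `GG r` : `G.h x = x * G.p x = r x / x = om x`, `wt (GG r) x = r x`;
* `FF F0 r` : `p = √(F0.p ^ 3 * r)`, so that `(x p)² = t² om` if `F0.p ^ 3 = t² / x³`.

Instances for `r`: `rb b` : `1 - b log (1 - x)`; `rw` : `1 / w1`.
-/

set_option autoImplicit false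

noncomputable section

namespace Vale.Agent.P254.H674

open Set Filter Topology
open Vale.Agent.P254.L Vale.Agent.P254.DD
open Vale.Agent.P254.H876 (al al_pos one_add_al one_sub_eq hasDerivAt_al continuousOn_al mapsTo_al
  HH ff XX JJ kk HH_pos HH_lt_two ff_pos hasDerivAt_HH' hasDerivAt_ff continuousOn_HH
  continuousOn_ff continuousOn_JJ sharp sharpW sharp_cube sharp_F2)

/-! ### continuity of the fields -/

theorem contP (P : Profile) : ContinuousOn P.p (Ioo 0 1) :=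
  fun x hx => (P.d1 x hx).continuousAt.continuousWithinAt

theorem contP1 (P : Profile) : ContinuousOn P.p1 (Ioo 0 1) :=
  fun x hx => (P.d2 x hx).continuousAt.continuousWithinAt

/-! ### the first weight -/

/-- the profile with `G.h = r / x` -/
def GG (r : Profile) : Profile where
  p x := r.p x / x ^ 2
  p1 x := r.p1 x / x ^ 2 - 2 * r.p x / x ^ 3
  p2 x := r.p2 x / x ^ 2 - 4 * r.p1 x / x ^ 3 + 6 * r.p x / x ^ 4
  pos x hx := div_pos (r.pos x hx) (pow_pos hx.1 2)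
  d1 x hx := by
    have hx0 : x ≠ 0 := hx.1.ne'
    refine ((r.d1 x hx).div (hasDerivAt_pow 2 x) (pow_ne_zero 2 hx0)).congr_deriv ?_
    push_cast
    field_simp
  d2 x hx := by
    have hx0 : x ≠ 0 := hx.1.ne'
    refine (((r.d2 x hx).div (hasDerivAt_pow 2 x) (pow_ne_zero 2 hx0)).sub
      (((r.d1 x hx).const_mul 2).div (hasDerivAt_pow 3 x) (pow_ne_zero 3 hx0))).congr_deriv ?_
    push_cast
    field_simp
    ring
  c2 := by
    have h0 := contP r
    have h1 := contP1 r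
    have h2 := r.c2
    refine ContinuousOn.add (ContinuousOn.sub ?_ ?_) ?_
    · exact h2.div (by fun_prop) fun x hx => pow_ne_zero 2 hx.1.ne'
    · exact (continuousOn_const.mul h1).div (by fun_prop) fun x hx => pow_ne_zero 3 hx.1.ne'
    · exact (continuousOn_const.mul h0).div (by fun_prop) fun x hx => pow_ne_zero 4 hx.1.ne'

theorem GG_p (r : Profile) (x : ℝ) : (GG r).p x = r.p x / x ^ 2 := rfl

/-- `G.h = om = r / x` -/
theorem GG_h (r : Profile) {x : ℝ} (hx : x ∈ Ioo (0 : ℝ) 1) : (GG r).h x = r.p x / x := by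
  have hx0 : x ≠ 0 := hx.1.ne'
  show x * (r.p x / x ^ 2) = _
  field_simp

/-- `wt (GG r) = r` -/
theorem wt_GG (r : Profile) {x : ℝ} (hx : x ∈ Ioo (0 : ℝ) 1) : wt (GG r) x = r.p x := by
  have hx0 : x ≠ 0 := hx.1.ne'
  show x ^ 2 * (r.p x / x ^ 2) = _
  field_simp

theorem GG_h1 (r : Profile) {x : ℝ} (hx : x ∈ Ioo (0 : ℝ) 1) :
    (GG r).h1 x = r.p1 x / x - r.p x / x ^ 2 := by
  have hx0 : x ≠ 0 := hx.1.ne'
  show r.p x / x ^ 2 + x * (r.p1 x / x ^ 2 - 2 * r.p x / x ^ 3) = _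
  field_simp
  ring

theorem GG_h2 (r : Profile) {x : ℝ} (hx : x ∈ Ioo (0 : ℝ) 1) :
    (GG r).h2 x = r.p2 x / x - 2 * r.p1 x / x ^ 2 + 2 * r.p x / x ^ 3 := by
  have hx0 : x ≠ 0 := hx.1.ne'
  show 2 * (r.p1 x / x ^ 2 - 2 * r.p x / x ^ 3)
    + x * (r.p2 x / x ^ 2 - 4 * r.p1 x / x ^ 3 + 6 * r.p x / x ^ 4) = _
  field_simp
  ring

/-- flow derivative of the weight -/
theorem wfl_GG (r : Profile) {x : ℝ} (hx : x ∈ Ioo (0 : ℝ) 1) :
    wfl (GG r) x = r.p x + (1 - x) * r.p1 x := by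
  have hx0 : x ≠ 0 := hx.1.ne'
  show 2 * x * (r.p x / x ^ 2) + x ^ 2 * (-(r.p x / x ^ 2)
    + (1 - x) * (r.p1 x / x ^ 2 - 2 * r.p x / x ^ 3)) = _
  field_simp
  ring

/-! ### the second weight -/

/-- half the logarithmic derivative of `F0.p ^ 3 * r` -/
def lg (F0 r : Profile) (x : ℝ) : ℝ := (3 * (F0.p1 x / F0.p x) + r.p1 x / r.p x) / 2

/-- derivative of `lg` -/
def lg1 (F0 r : Profile) (x : ℝ) : ℝ :=
  (3 * (F0.p2 x / F0.p x - (F0.p1 x / F0.p x) ^ 2) + (r.p2 x / r.p x - (r.p1 x / r.p x) ^ 2)) / 2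

theorem hasDerivAt_quot (P : Profile) {x : ℝ} (hx : x ∈ Ioo (0 : ℝ) 1) :
    HasDerivAt (fun y => P.p1 y / P.p y) (P.p2 x / P.p x - (P.p1 x / P.p x) ^ 2) x := by
  have h0 := (P.pos x hx).ne'
  refine ((P.d2 x hx).div (P.d1 x hx) h0).congr_deriv ?_
  field_simp

theorem hasDerivAt_lg (F0 r : Profile) {x : ℝ} (hx : x ∈ Ioo (0 : ℝ) 1) :
    HasDerivAt (lg F0 r) (lg1 F0 r x) x := by
  have h := (((hasDerivAt_quot F0 hx).const_mul 3).add (hasDerivAt_quot r hx)).div_const 2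
  exact h

/-- `√(p³ r)` -/
def sp (F0 r : Profile) (x : ℝ) : ℝ := Real.sqrt (F0.p x ^ 3 * r.p x)

theorem sp_pos (F0 r : Profile) {x : ℝ} (hx : x ∈ Ioo (0 : ℝ) 1) : 0 < sp F0 r x :=
  Real.sqrt_pos.2 (mul_pos (pow_pos (F0.pos x hx) 3) (r.pos x hx))

theorem hasDerivAt_sp (F0 r : Profile) {x : ℝ} (hx : x ∈ Ioo (0 : ℝ) 1) :
    HasDerivAt (sp F0 r) (lg F0 r x * sp F0 r x) x := by
  have h0 := F0.pos x hx
  have h1 := r.pos x hx
  have hpos : 0 < F0.p x ^ 3 * r.p x := mul_pos (pow_pos h0 3) h1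
  have h := (((F0.d1 x hx).pow 3).mul (r.d1 x hx)).sqrt (by
    show F0.p x ^ 3 * r.p x ≠ 0
    exact hpos.ne')
  refine h.congr_deriv ?_
  have hs := Real.mul_self_sqrt hpos.le
  have hs0 : Real.sqrt (F0.p x ^ 3 * r.p x) ≠ 0 := (Real.sqrt_pos.2 hpos).ne'
  simp only [Pi.mul_apply, Pi.pow_apply, Nat.cast_ofNat, Nat.add_one_sub_one]
  show _ / (2 * Real.sqrt (F0.p x ^ 3 * r.p x)) = lg F0 r x * Real.sqrt (F0.p x ^ 3 * r.p x)
  rw [div_eq_iff (by positivity)]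
  have e : lg F0 r x * Real.sqrt (F0.p x ^ 3 * r.p x) * (2 * Real.sqrt (F0.p x ^ 3 * r.p x))
      = 2 * lg F0 r x * (F0.p x ^ 3 * r.p x) := by
    linear_combination (2 * lg F0 r x) * hs
  rw [e]
  unfold lg
  field_simp

/-- the profile with `p = √(F0.p³ r)` -/
def FF (F0 r : Profile) : Profile where
  p x := sp F0 r x
  p1 x := lg F0 r x * sp F0 r x
  p2 x := (lg1 F0 r x + lg F0 r x ^ 2) * sp F0 r x
  pos x hx := sp_pos F0 r hx
  d1 x hx := hasDerivAt_sp F0 r hx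
  d2 x hx := by
    refine ((hasDerivAt_lg F0 r hx).mul (hasDerivAt_sp F0 r hx)).congr_deriv ?_
    ring
  c2 := by
    have a0 := contP F0
    have a1 := contP1 F0
    have a2 := F0.c2
    have b0 := contP r
    have b1 := contP1 r
    have b2 := r.c2
    have hF : ∀ x ∈ Ioo (0 : ℝ) 1, F0.p x ≠ 0 := fun x hx => (F0.pos x hx).ne'
    have hr : ∀ x ∈ Ioo (0 : ℝ) 1, r.p x ≠ 0 := fun x hx => (r.pos x hx).ne'
    have c1 : ContinuousOn (lg F0 r) (Ioo 0 1) :=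
      fun x hx => (hasDerivAt_lg F0 r hx).continuousAt.continuousWithinAt
    have c3 : ContinuousOn (sp F0 r) (Ioo 0 1) :=
      fun x hx => (hasDerivAt_sp F0 r hx).continuousAt.continuousWithinAt
    have c2 : ContinuousOn (lg1 F0 r) (Ioo 0 1) := by
      unfold lg1
      exact ((continuousOn_const.mul ((a2.div a0 hF).sub ((a1.div a0 hF).pow 2))).add
        ((b2.div b0 hr).sub ((b1.div b0 hr).pow 2))).div_const 2
    exact (c2.add (c1.pow 2)).mul c3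

theorem FF_p (F0 r : Profile) (x : ℝ) : (FF F0 r).p x = Real.sqrt (F0.p x ^ 3 * r.p x) := rfl

theorem FF_p1 (F0 r : Profile) (x : ℝ) : (FF F0 r).p1 x = lg F0 r x * (FF F0 r).p x := rfl

theorem FF_p2 (F0 r : Profile) (x : ℝ) :
    (FF F0 r).p2 x = (lg1 F0 r x + lg F0 r x ^ 2) * (FF F0 r).p x := rfl

/-- `p² = F0.p³ r` -/
theorem FF_sq (F0 r : Profile) {x : ℝ} (hx : x ∈ Ioo (0 : ℝ) 1) :
    (FF F0 r).p x ^ 2 = F0.p x ^ 3 * r.p x :=
  Real.sq_sqrt (mul_pos (pow_pos (F0.pos x hx) 3) (r.pos x hx)).le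

/-- `s² = (x³ F0.p³) om` -/
theorem FF_h_sq (F0 r : Profile) {x : ℝ} (hx : x ∈ Ioo (0 : ℝ) 1) :
    (FF F0 r).h x ^ 2 = F0.h x ^ 3 * (GG r).h x := by
  have hx0 : x ≠ 0 := hx.1.ne'
  rw [GG_h r hx]
  show (x * (FF F0 r).p x) ^ 2 = (x * F0.p x) ^ 3 * (r.p x / x)
  rw [mul_pow, FF_sq F0 r hx]
  field_simp

/-! ### the clocks -/

theorem log_neg {x : ℝ} (hx : x ∈ Ioo (0 : ℝ) 1) : Real.log (1 - x) < 0 :=
  Real.log_neg (by linarith [hx.2]) (by linarith [hx.1])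

theorem hasDerivAt_log1 {x : ℝ} (hx : x ∈ Ioo (0 : ℝ) 1) :
    HasDerivAt (fun y : ℝ => Real.log (1 - y)) (-(1 / (1 - x))) x := by
  have h1 : (1 : ℝ) - x ≠ 0 := by linarith [hx.2]
  have h := ((hasDerivAt_id x).const_sub 1).log h1
  refine h.congr_deriv ?_
  simp only [id_eq]
  field_simp

/-- `r x = 1 - b log (1 - x)` -/
def rb (b : ℝ) (hb : 0 ≤ b) : Profile where
  p x := 1 - b * Real.log (1 - x)
  p1 x := b / (1 - x)
  p2 x := b / (1 - x) ^ 2
  pos x hx := by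
    have := mul_nonneg hb (neg_nonneg.2 (log_neg hx).le)
    linarith
  d1 x hx := by
    refine (((hasDerivAt_log1 hx).const_mul b).const_sub 1).congr_deriv ?_
    ring
  d2 x hx := by
    have h1 : (1 : ℝ) - x ≠ 0 := by linarith [hx.2]
    have h := (hasDerivAt_const x b).div ((hasDerivAt_id x).const_sub 1) h1
    refine h.congr_deriv ?_
    simp only [id_eq]
    ring
  c2 := by
    refine ContinuousOn.div continuousOn_const (by fun_prop) fun x hx => ?_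
    have h1 : (1 : ℝ) - x ≠ 0 := by linarith [hx.2]
    exact pow_ne_zero 2 h1

/-- `w1` as a profile -/
def w1P : Profile where
  p x := HH (al x) / 2
  p1 x := -(ff (al x) * (1 + al x) ^ 2)
  p2 x := (((al x + HH (al x)) * (al x + HH (al x) + 2) / 2 * ff (al x)
      - (1 / 2 + ff (al x)) * JJ (al x)) / (al x * (al x + 1))) * (1 + al x) ^ 4
    + 2 * ff (al x) * (1 + al x) ^ 3
  pos x hx := half_pos (HH_pos _ (al_pos hx))
  d1 x hx := by
    have ha := al_pos hx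
    have h := ((hasDerivAt_HH' ha).div_const 2).comp x (hasDerivAt_al hx)
    refine h.congr_deriv ?_
    ring
  d2 x hx := by
    have ha := al_pos hx
    have h1 := (hasDerivAt_ff ha).comp x (hasDerivAt_al hx)
    have h2 := ((hasDerivAt_al hx).const_add 1).pow 2
    refine ((h1.mul h2).neg).congr_deriv ?_
    simp only [Function.comp_apply, Pi.pow_apply, Nat.cast_ofNat, Nat.add_one_sub_one, pow_one]
    ring
  c2 := by
    have h1 := continuousOn_al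
    have h2 := continuousOn_HH.comp continuousOn_al mapsTo_al
    have h3 := continuousOn_ff.comp continuousOn_al mapsTo_al
    have h4 := continuousOn_JJ.comp continuousOn_al mapsTo_al
    have h5 : ∀ x ∈ Ioo (0 : ℝ) 1, al x * (al x + 1) ≠ 0 := fun x hx => by
      have := al_pos hx
      positivity
    refine ContinuousOn.add (ContinuousOn.mul (ContinuousOn.div (ContinuousOn.sub ?_ ?_) ?_ h5) ?_)
      ?_
    · exact (((h1.add h2).mul ((h1.add h2).add continuousOn_const)).div_const 2).mul h3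
    · exact (continuousOn_const.add h3).mul h4
    · exact h1.mul (h1.add continuousOn_const)
    · exact (continuousOn_const.add h1).pow 4
    · exact (continuousOn_const.mul h3).mul ((continuousOn_const.add h1).pow 3)

/-- the inverse of a profile -/
def invP (P : Profile) : Profile where
  p x := 1 / P.p x
  p1 x := -(P.p1 x / P.p x ^ 2)
  p2 x := 2 * P.p1 x ^ 2 / P.p x ^ 3 - P.p2 x / P.p x ^ 2
  pos x hx := one_div_pos.2 (P.pos x hx)
  d1 x hx := by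
    have h0 := (P.pos x hx).ne'
    refine ((hasDerivAt_const x (1 : ℝ)).div (P.d1 x hx) h0).congr_deriv ?_
    ring
  d2 x hx := by
    have h0 := (P.pos x hx).ne'
    refine (((P.d2 x hx).div ((P.d1 x hx).pow 2) (pow_ne_zero 2 h0)).neg).congr_deriv ?_
    simp only [Pi.pow_apply, Nat.cast_ofNat, Nat.add_one_sub_one, pow_one]
    field_simp
    ring
  c2 := by
    have a0 := contP P
    have a1 := contP1 P
    have a2 := P.c2
    exact ((continuousOn_const.mul (a1.pow 2)).div (a0.pow 3)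
      fun x hx => pow_ne_zero 3 (P.pos x hx).ne').sub
      (a2.div (a0.pow 2) fun x hx => pow_ne_zero 2 (P.pos x hx).ne')

/-- `r x = 1 / w1 x` -/
def rw1 : Profile := invP w1P

theorem rw1_p (x : ℝ) : rw1.p x = 1 / sharpW.w1 x := rfl

theorem rb_p (b : ℝ) (hb : 0 ≤ b) (x : ℝ) : (rb b hb).p x = 1 - b * Real.log (1 - x) := rfl

/-! ### growth -/

/-- `H a ≥ √a / 4` for `a ≤ 1`, and `H a ≥ 1 / 4` for `a ≥ 1` -/
theorem HH_low {a : ℝ} (ha : 0 < a) : Real.sqrt (a / (1 + a)) ≤ 4 * HH a := by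
  have h0 := HH_pos a ha
  have h2 := HH_lt_two a ha
  have hf := ff_pos a ha
  have hX : 0 < XX a (HH a) := by
    rw [Vale.Agent.P254.H876.XX_eq ha]
    positivity
  unfold XX at hX
  obtain ⟨H, hH⟩ : ∃ H, H = HH a := ⟨_, rfl⟩
  rw [← hH] at h0 h2 hX ⊢
  rw [Real.sqrt_le_left (by positivity)]
  rw [div_le_iff₀ (by positivity)]
  -- `a ≤ 16 H² (1 + a)`
  by_contra hc
  push Not at hc
  have h3 : 2 * a * (a + 1) < H * (a + H) * (a + H + 2) := by linarith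
  have h4 : H * (a + H) * (a + H + 2) = H * (a * (a + 2) + H * (2 * a + 2) + H ^ 2) := by ring
  have h5 : H ^ 2 * (1 + a) ≤ a / 16 := by nlinarith
  have h6 : H ^ 2 ≤ a / 16 := by nlinarith [sq_nonneg H]
  have h7 : H < 1 / 4 := by
    by_contra h8
    push Not at h8
    have h9 : 1 / 16 ≤ H ^ 2 := by nlinarith
    nlinarith
  nlinarith [mul_pos h0 ha, mul_pos ha ha]

theorem one_le_rb (b : ℝ) (hb : 0 ≤ b) {x : ℝ} (hx : x ∈ Ioo (0 : ℝ) 1) :
    1 ≤ (rb b hb).p x := by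
  have := mul_nonneg hb (neg_nonneg.2 (log_neg hx).le)
  rw [rb_p]
  linarith

theorem one_le_rw1 {x : ℝ} (hx : x ∈ Ioo (0 : ℝ) 1) : 1 ≤ rw1.p x := by
  have h0 := sharpW.w1_pos x hx
  have h1 : sharpW.w1 x ≤ 1 := sharpW.w1_le x hx
  rw [rw1_p]
  exact (one_le_div h0).2 h1

theorem rb_up (b : ℝ) (hb : 0 ≤ b) {x : ℝ} (hx : x ∈ Ioo (0 : ℝ) 1) :
    (rb b hb).p x * Real.sqrt (1 - x) ≤ 1 + 2 * b := by
  have hx1 : 0 < 1 - x := by linarith [hx.2]
  have hs0 := Real.sqrt_pos.2 hx1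
  have hs1 : Real.sqrt (1 - x) ≤ 1 := Real.sqrt_le_one.2 (by linarith [hx.1])
  have h : -Real.log (1 - x) * Real.sqrt (1 - x) ≤ 2 := by
    have e : Real.log (1 - x) = 2 * Real.log (Real.sqrt (1 - x)) := by
      rw [Real.log_sqrt hx1.le]
      ring
    have h1 := Real.add_one_le_exp (-Real.log (Real.sqrt (1 - x)))
    rw [Real.exp_neg, Real.exp_log hs0] at h1
    rw [e]
    have h2 : -Real.log (Real.sqrt (1 - x)) ≤ (Real.sqrt (1 - x))⁻¹ := by linarith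
    have h3 := mul_le_mul_of_nonneg_right h2 hs0.le
    rw [inv_mul_cancel₀ hs0.ne'] at h3
    linarith
  rw [rb_p]
  nlinarith [mul_le_mul_of_nonneg_left h hb]

theorem rw1_up {x : ℝ} (hx : x ∈ Ioo (0 : ℝ) 1) : rw1.p x * Real.sqrt (1 - x) ≤ 8 := by
  have ha := al_pos hx
  have h := HH_low ha
  rw [← one_sub_eq hx] at h
  have h0 := HH_pos _ ha
  show 1 / (HH (al x) / 2) * Real.sqrt (1 - x) ≤ 8
  rw [one_div_div, div_mul_eq_mul_div, div_le_iff₀ h0]
  linarith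

theorem FF_low {F0 r : Profile} {κ : ℝ}
    (h0 : ∀ x ∈ Ioo (0 : ℝ) 1, κ ^ 2 * (1 - x) ^ 2 ≤ F0.p x ^ 3)
    (hr : ∀ x ∈ Ioo (0 : ℝ) 1, 1 ≤ r.p x) {x : ℝ} (hx : x ∈ Ioo (0 : ℝ) 1) :
    κ * (1 - x) ≤ (FF F0 r).p x := by
  have hx1 : 0 < 1 - x := by linarith [hx.2]
  refine Real.le_sqrt_of_sq_le ?_
  have h1 := h0 x hx
  have h2 := hr x hx
  have h3 := pow_pos (F0.pos x hx) 3
  rw [mul_pow]
  nlinarith

theorem sharp_low : ∀ x ∈ Ioo (0 : ℝ) 1, (1 / 2 : ℝ) ^ 2 * (1 - x) ^ 2 ≤ sharp.p x ^ 3 := by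
  intro x hx
  have := sharp_F2 x hx
  nlinarith [sq_nonneg (1 - x)]

theorem growth_of {r : Profile} {C : ℝ} (hr : ∀ x ∈ Ioo (0 : ℝ) 1, 1 ≤ r.p x)
    (hC : ∀ x ∈ Ioo (0 : ℝ) 1, r.p x * Real.sqrt (1 - x) ≤ C) :
    GrowthOK (FF sharp r) (GG r) where
  low := ⟨1 / 2, by norm_num, fun _ hx => FF_low sharp_low hr hx⟩
  up := ⟨C, fun x hx => by
    rw [wt_GG r hx]
    exact hC x hx⟩

theorem growth_rb (b : ℝ) (hb : 0 ≤ b) : GrowthOK (FF sharp (rb b hb)) (GG (rb b hb)) :=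
  growth_of (fun _ hx => one_le_rb b hb hx) fun _ hx => rb_up b hb hx

theorem growth_rw1 : GrowthOK (FF sharp rw1) (GG rw1) :=
  growth_of (fun _ hx => one_le_rw1 hx) fun _ hx => rw1_up hx

/-- the hypothesis of `H115.stZ` for a clock `r ≥ 1` -/
theorem stZ_hyp {r : Profile} {C : ℝ} (hC : ∀ x ∈ Ioo (0 : ℝ) 1, r.p x * Real.sqrt (1 - x) ≤ C)
    {x : ℝ} (hx : x ∈ Ioo (0 : ℝ) 1) : r.p x * sharpW.w1 x * Real.sqrt (1 - x) ≤ C := by
  have h0 := sharpW.w1_pos x hx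
  have h1 : sharpW.w1 x ≤ 1 := sharpW.w1_le x hx
  have h2 := hC x hx
  have h3 : 0 ≤ r.p x * Real.sqrt (1 - x) :=
    mul_nonneg (r.pos x hx).le (Real.sqrt_nonneg _)
  nlinarith

end Vale.Agent.P254.H674
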